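import Vale.Agent.P063.Thin

namespace Vale.Agent.Results.P063.MintermBound

open Vale.Agent.P063

/-- If every member of a nontrivial increasing family `P` of `r`-uniform hypergraphs on `n`
vertices contains a member with at most `M` edges, then
`w_ε(P) ≥ (1 - (ε/(1-ε))^(1/M)) * p_{1-ε}(P)`. -/
theorem result (n r M : ℕ) (P : Set (HG n r)) (hinc : Incr P) (hnt : Nontriv P)
    (hM : MintermLE P M) (ε : ℝ) (hε0 : 0 < ε) (hε1 : ε < 1 / 2) :
    (1 - (ε / (1 - ε)) ^ ((1 : ℝ) / (M : ℝ))) * crit (1 - ε) P ≤ width ε P := by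
  have hM1 : 1 ≤ M := by
    by_contra h
    have h0 : M = 0 := by omega
    obtain ⟨⟨G, hG⟩, ⟨H, hH⟩⟩ := hnt
    obtain ⟨S₀, _, hS, hc⟩ := hM G hG
    rw [h0, Nat.le_zero, Finset.card_eq_zero] at hc
    rw [hc] at hS
    exact hH (hinc ∅ H (Finset.empty_subset _) hS)
  have hMpos : (0 : ℝ) < M := by exact_mod_cast hM1
  have hb0 : 0 < ε / (1 - ε) := div_pos hε0 (by linarith)
  have hb1 : ε / (1 - ε) ≤ 1 := by
    rw [div_le_one (by linarith)]; linarith
  refine width_ge hinc (univ_mem hinc hnt) hM hε0.le (Real.rpow_pos_of_pos hb0 _)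
    (Real.rpow_le_one hb0.le hb1 (by positivity)) ?_
  rw [← Real.rpow_natCast, ← Real.rpow_mul hb0.le, one_div, inv_mul_cancel₀ hMpos.ne',
    Real.rpow_one]
  have : (1 - ε) ≠ 0 := by linarith
  field_simp
  exact le_refl _

end Vale.Agent.Results.P063.MintermBound
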