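import Vale.Agent.P063.Clique
import Vale.Agent.Results.P063.MintermBound

namespace Vale.Agent.Results.P063.A00_Combined

open Vale.Agent.P063

/-- (1) For every uniformity `r ≥ 2` there is `c > 0` such that for all large `n` and all
`0 < ε < 1/2` some nontrivial increasing `r`-uniform hypergraph property on `n` vertices has
threshold width at least `c * min 1 (log ((1-ε)/ε) / (log n)^(r/(r-1)))`.
(2) If every member of a nontrivial increasing family `P` of `r`-uniform hypergraphs on `n`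
vertices contains a member with at most `M` edges, then
`w_ε(P) ≥ (1 - (ε/(1-ε))^(1/M)) * p_{1-ε}(P)`. -/
theorem result :
    (∀ r : ℕ, 2 ≤ r → ∃ c : ℝ, 0 < c ∧ ∃ n₀ : ℕ, ∀ n : ℕ, n₀ ≤ n →
      ∀ ε : ℝ, 0 < ε → ε < 1 / 2 → ∃ P : Set (HG n r), IsProp P ∧ Incr P ∧ Nontriv P ∧
        c * min 1 (Real.log ((1 - ε) / ε) / (Real.log n) ^ ((r : ℝ) / ((r : ℝ) - 1))) ≤
          width ε P) ∧
    (∀ (n r M : ℕ) (P : Set (HG n r)), Incr P → Nontriv P → MintermLE P M →
      ∀ ε : ℝ, 0 < ε → ε < 1 / 2 →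
        (1 - (ε / (1 - ε)) ^ ((1 : ℝ) / (M : ℝ))) * crit (1 - ε) P ≤ width ε P) :=
  ⟨clique_tight, fun n r M P hinc hnt hM ε h0 h1 =>
    Vale.Agent.Results.P063.MintermBound.result n r M P hinc hnt hM ε h0 h1⟩

end Vale.Agent.Results.P063.A00_Combined
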