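import Vale.Agent.P063.Clique

namespace Vale.Agent.Results.P063.A0_ExponentSharp

open Vale.Agent.P063

/-- For every uniformity `r ≥ 2` there is `c > 0` such that for all large `n` and all
`0 < ε < 1/2` some nontrivial increasing `r`-uniform hypergraph property on `n` vertices has
threshold width at least `c * min 1 (log ((1-ε)/ε) / (log n)^(r/(r-1)))`. -/
theorem result : ∀ r : ℕ, 2 ≤ r → ∃ c : ℝ, 0 < c ∧ ∃ n₀ : ℕ, ∀ n : ℕ, n₀ ≤ n →
    ∀ ε : ℝ, 0 < ε → ε < 1 / 2 → ∃ P : Set (HG n r), IsProp P ∧ Incr P ∧ Nontriv P ∧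
      c * min 1 (Real.log ((1 - ε) / ε) / (Real.log n) ^ ((r : ℝ) / ((r : ℝ) - 1))) ≤ width ε P :=
  clique_tight

end Vale.Agent.Results.P063.A0_ExponentSharp
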